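import Crest.Prelude.Def_MatrixModel

/-!
# Row 330 (BFSS matrix model, S0512 / S0513): frozen definitions

See `R330/Blueprint.lean` for the paper proof.  Conventions:
* `E` is a finite dimensional real inner product space with an invariant Lie bracket (`Lie E`;
  for matrices `br X Y = i [X, Y]`), `X E = E^9` the configuration space, `Θ E = E^16` labels the
  fermions, `Cl Θ F` is a (not necessarily irreducible) Clifford module, `θ(u)² = ‖u‖²/2`.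
* index `8 : Fin 9` is the direction `φ = x 8`; the planes are `(0,1),(2,3),(4,5),(6,7)`.
-/

set_option autoImplicit false

noncomputable section

open MeasureTheory Filter Topology
open scoped InnerProductSpace ContDiff Matrix
open Crest.MathPhysics.MatrixQM (GammaNine)

namespace Crest.Agent.R330

/-! ## 1. Clifford modules, bilinears, vacua -/

section Cliff

variable {Θ Θ' F : Type} [NormedAddCommGroup Θ] [InnerProductSpace ℝ Θ] [FiniteDimensional ℝ Θ]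
  [NormedAddCommGroup Θ'] [InnerProductSpace ℝ Θ'] [FiniteDimensional ℝ Θ']
  [NormedAddCommGroup F] [InnerProductSpace ℂ F] [FiniteDimensional ℂ F]

/-- A Clifford module: self-adjoint `θ v` with `{θ u, θ v} = ⟪u, v⟫`. -/
structure Cl (Θ F : Type) [NormedAddCommGroup Θ] [InnerProductSpace ℝ Θ]
    [NormedAddCommGroup F] [InnerProductSpace ℂ F] [FiniteDimensional ℂ F] where
  θ : Θ →ₗ[ℝ] (F →L[ℂ] F)
  sa : ∀ v, IsSelfAdjoint (θ v)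
  anti : ∀ u v, θ u * θ v + θ v * θ u = (((⟪u, v⟫_ℝ : ℝ) : ℂ)) • (1 : F →L[ℂ] F)

/-- Restriction of a Clifford module along an isometry. -/
def Cl.comap (C : Cl Θ F) (ι : Θ' →ₗᵢ[ℝ] Θ) : Cl Θ' F where
  θ := C.θ ∘ₗ ι.toLinearMap
  sa := fun v => C.sa _
  anti := fun u v => by
    simpa [LinearIsometry.inner_map_map] using C.anti (ι u) (ι v)

/-- Irreducibility. -/
def Cl.Irr (C : Cl Θ F) : Prop :=
  ∀ W : Submodule ℂ F, (∀ v : Θ, ∀ x ∈ W, C.θ v x ∈ W) → W = ⊥ ∨ W = ⊤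

/-- Skew-symmetric real endomorphisms. -/
def IsSkew {V : Type} [NormedAddCommGroup V] [InnerProductSpace ℝ V] (A : V →ₗ[ℝ] V) : Prop :=
  ∀ u v, ⟪A u, v⟫_ℝ = -⟪u, A v⟫_ℝ

/-- Orthogonal complex structures. -/
def IsCx {V : Type} [NormedAddCommGroup V] [InnerProductSpace ℝ V] (J : V →ₗ[ℝ] V) : Prop :=
  IsSkew J ∧ ∀ v, J (J v) = -v

/-- The spin generator `S(A) = ½ Σ_u θ(A u) θ(u)`; for skew `A`, `[S A, θ v] = θ (A v)`. -/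
def Cl.S (C : Cl Θ F) (A : Θ →ₗ[ℝ] Θ) : F →L[ℂ] F :=
  (1 / 2 : ℂ) • ∑ i, C.θ (A (stdOrthonormalBasis ℝ Θ i)) * C.θ (stdOrthonormalBasis ℝ Θ i)

/-- The Hermitian bilinear `i S(A)`. -/
def Cl.iS (C : Cl Θ F) (A : Θ →ₗ[ℝ] Θ) : F →L[ℂ] F := Complex.I • C.S A

/-- Annihilator `a(v) = θ v - i θ (J v)`. -/
def Cl.ann (C : Cl Θ F) (J : Θ →ₗ[ℝ] Θ) (v : Θ) : F →L[ℂ] F := C.θ v - Complex.I • C.θ (J v)

/-- Number operator `𝒩 = dim/4 + i S(J) = ¼ Σ a(u)* a(u)`. -/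
def Cl.num (C : Cl Θ F) (J : Θ →ₗ[ℝ] Θ) : F →L[ℂ] F :=
  ((Module.finrank ℝ Θ : ℂ) / 4) • (1 : F →L[ℂ] F) + C.iS J

/-- The vacuum projector `∏_{k=1}^{dim} (1 - 𝒩/k)`. -/
def Cl.vac (C : Cl Θ F) (J : Θ →ₗ[ℝ] Θ) : F →L[ℂ] F :=
  Polynomial.aeval (C.num J)
    (∏ k ∈ Finset.Icc 1 (Module.finrank ℝ Θ), (1 - Polynomial.C ((k : ℂ)⁻¹) * Polynomial.X))

/-- Exponential of a real endomorphism of a finite dimensional space. -/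
def rexp' {V : Type} [NormedAddCommGroup V] [InnerProductSpace ℝ V] [FiniteDimensional ℝ V]
    (A : V →ₗ[ℝ] V) : V →L[ℝ] V :=
  NormedSpace.exp (LinearMap.toContinuousLinearMap A)

end Cliff

/-! ## 2. Dirac type operators on a Euclidean space -/

section Dirac

variable {Y Θ F : Type} [NormedAddCommGroup Y] [InnerProductSpace ℝ Y] [FiniteDimensional ℝ Y]
  [MeasurableSpace Y] [BorelSpace Y]
  [NormedAddCommGroup Θ] [InnerProductSpace ℝ Θ] [FiniteDimensional ℝ Θ]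
  [NormedAddCommGroup F] [InnerProductSpace ℂ F] [FiniteDimensional ℂ F]

/-- Smooth with compact support. -/
def Core {Y F : Type} [NormedAddCommGroup Y] [NormedSpace ℝ Y] [NormedAddCommGroup F]
    [NormedSpace ℝ F] (ψ : Y → F) : Prop := ContDiff ℝ ∞ ψ ∧ HasCompactSupport ψ

/-- `Q ψ = -i Σ_e θ(c e) ∂_e ψ + θ(w) ψ`. -/
def dirac (C : Cl Θ F) (c : Y →ₗ[ℝ] Θ) (w : Y → Θ) (ψ : Y → F) (x : Y) : F :=
  (∑ i, (-Complex.I) • C.θ (c (stdOrthonormalBasis ℝ Y i))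
      (fderiv ℝ ψ x (stdOrthonormalBasis ℝ Y i))) + C.θ (w x) (ψ x)

/-- `|∇ψ|² = Σ_e ‖∂_e ψ‖²`. -/
def gsq (ψ : Y → F) (x : Y) : ℝ := ∑ i, ‖fderiv ℝ ψ x (stdOrthonormalBasis ℝ Y i)‖ ^ 2

/-- `Δψ = Σ_e ∂_e ∂_e ψ`. -/
def lap (ψ : Y → F) (x : Y) : F :=
  ∑ i, fderiv ℝ (fun y => fderiv ℝ ψ y (stdOrthonormalBasis ℝ Y i)) x (stdOrthonormalBasis ℝ Y i)

/-- The infinitesimal symmetry law at a point: `∂_{A x} ψ = S ψ + i k ψ`. -/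
def WtAt (A : Y →ₗ[ℝ] Y) (S : F →L[ℂ] F) (k : ℝ) (ψ : Y → F) (x : Y) : Prop :=
  fderiv ℝ ψ x (A x) = S (ψ x) + ((k : ℂ) * Complex.I) • ψ x

/-- A set of finite symmetries `(R, U)`. -/
abbrev Syms (Y F : Type) [NormedAddCommGroup Y] [NormedSpace ℝ Y] [NormedAddCommGroup F]
    [NormedSpace ℂ F] := Set ((Y →L[ℝ] Y) × (F →L[ℂ] F))

/-- All symmetries are isometric. -/
def SymOK (𝒮 : Syms Y F) : Prop := ∀ p ∈ 𝒮, (∀ x, ‖p.1 x‖ = ‖x‖) ∧ ∀ v, ‖p.2 v‖ = ‖v‖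

/-- The Dirac operator commutes with the symmetries. -/
def Compat (C : Cl Θ F) (c : Y →ₗ[ℝ] Θ) (w : Y → Θ) (𝒮 : Syms Y F) : Prop :=
  ∀ p ∈ 𝒮, (∀ x, p.2 * C.θ (c x) = C.θ (c (p.1 x)) * p.2) ∧
    ∀ x, p.2 * C.θ (w x) = C.θ (w (p.1 x)) * p.2

/-- Symmetric core vectors. -/
def DS (𝒮 : Syms Y F) (ψ : Y → F) : Prop := Core ψ ∧ ∀ p ∈ 𝒮, ∀ x, ψ (p.1 x) = p.2 (ψ x)

/-- Symmetric `L²` functions. -/
def HS (𝒮 : Syms Y F) (Ψ : Y → F) : Prop :=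
  MemLp Ψ 2 volume ∧ ∀ p ∈ 𝒮, (fun x => Ψ (p.1 x)) =ᵐ[volume] fun x => p.2 (Ψ x)

/-- Invariant scalar functions. -/
def InvS (𝒮 : Syms Y F) (h : Y → ℝ) : Prop := ∀ p ∈ 𝒮, ∀ x, h (p.1 x) = h x

/-- Strong kernel (the shape of the frozen statement). -/
def SK (𝒮 : Syms Y F) (Q : (Y → F) → Y → F) : Set (Y → F) :=
  {Ψ | MemLp Ψ 2 volume ∧ ∃ φ : ℕ → Y → F, (∀ n, DS 𝒮 (φ n)) ∧
      Tendsto (fun n => eLpNorm (φ n - Ψ) 2 volume) atTop (𝓝 0) ∧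
      Tendsto (fun n => eLpNorm (Q (φ n)) 2 volume) atTop (𝓝 0)}

/-- Weak kernel. -/
def WK (𝒮 : Syms Y F) (Q : (Y → F) → Y → F) : Set (Y → F) :=
  {Ψ | HS 𝒮 Ψ ∧ ∀ φ, DS 𝒮 φ → ∫ x, ⟪Ψ x, Q φ x⟫_ℂ = 0}

/-- Some element is not a.e. zero. -/
def NonTriv (K : Set (Y → F)) : Prop := ∃ Ψ ∈ K, ¬ (Ψ =ᵐ[volume] 0)

/-- Any two elements are linearly dependent a.e. -/
def AtMostOne (K : Set (Y → F)) : Prop :=
  ∀ Ψ₁ ∈ K, ∀ Ψ₂ ∈ K, ∃ a b : ℂ, (a ≠ 0 ∨ b ≠ 0) ∧ (a • Ψ₁ + b • Ψ₂) =ᵐ[volume] 0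

/-- Add the parity condition `ψ = Γ ψ`. -/
def withPar (𝒮 : Syms Y F) (Γ : F →L[ℂ] F) : Syms Y F := insert (ContinuousLinearMap.id ℝ Y, Γ) 𝒮

/-- A fermion parity: self-adjoint involution anticommuting with all `θ`. -/
def IsPar (C : Cl Θ F) (Γ : F →L[ℂ] F) : Prop :=
  IsSelfAdjoint Γ ∧ Γ * Γ = 1 ∧ ∀ v, Γ * C.θ v = -(C.θ v * Γ)

end Dirac

/-! ## 3. The matrix model over a Lie algebra with invariant inner product -/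

/-- `E^n` with the Euclidean norm. -/
abbrev T (n : ℕ) (E : Type) := PiLp 2 (fun _ : Fin n => E)
/-- Configurations. -/
abbrev X (E : Type) := T 9 E
/-- Fermion labels. -/
abbrev Th (E : Type) := T 16 E

section Model

variable {E E' F : Type} [NormedAddCommGroup E] [InnerProductSpace ℝ E] [FiniteDimensional ℝ E]
  [NormedAddCommGroup E'] [InnerProductSpace ℝ E'] [FiniteDimensional ℝ E']
  [NormedAddCommGroup F] [InnerProductSpace ℂ F] [FiniteDimensional ℂ F]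

/-- Componentwise action `1 ⊗ L`. -/
def lift (n : ℕ) (L : E →ₗ[ℝ] E') : T n E →ₗ[ℝ] T n E' where
  toFun x := WithLp.toLp 2 fun a => L (x a)
  map_add' x y := by ext a; simp
  map_smul' r x := by ext a; simp

/-- `lift` of an isometry. -/
def liftI (n : ℕ) (L : E →ₗᵢ[ℝ] E') : T n E →ₗᵢ[ℝ] T n E' where
  toLinearMap := lift n L.toLinearMap
  norm_map' x := by
    rw [PiLp.norm_eq_of_L2, PiLp.norm_eq_of_L2]
    simp [lift]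

/-- Action `M ⊗ 1` of a real matrix on the index. -/
def mat {m n : ℕ} (M : Matrix (Fin m) (Fin n) ℝ) : T n E →ₗ[ℝ] T m E where
  toFun x := WithLp.toLp 2 fun a => ∑ b, M a b • x b
  map_add' x y := by ext a; simp [Finset.sum_add_distrib]
  map_smul' r x := by ext a; simp [Finset.smul_sum, smul_comm r]

/-- Pure tensor `u ⊗ e`. -/
def tens {n : ℕ} (u : Fin n → ℝ) (e : E) : T n E := WithLp.toLp 2 fun a => u a • e

/-- A Lie bracket with invariant inner product. -/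
structure Lie (E : Type) [NormedAddCommGroup E] [InnerProductSpace ℝ E] where
  br : E →ₗ[ℝ] E →ₗ[ℝ] E
  anti : ∀ x y, br x y = -br y x
  inv : ∀ x y z, ⟪br x y, z⟫_ℝ = ⟪x, br y z⟫_ℝ
  jac : ∀ x y z, br x (br y z) = br (br x y) z + br y (br x z)

/-- `c_u : e ⊗ e_i ↦ e ⊗ γ^i u`. -/
def cmap (G : GammaNine) (u : Fin 16 → ℝ) : X E →ₗ[ℝ] Th E :=
  mat (Matrix.of fun α i => (G.γ i *ᵥ u) α)

/-- `w_u(x) = ½ Σ_{ij} ⟦x_i, x_j⟧ ⊗ γ^i γ^j u`. -/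
def wpot (𝔤 : Lie E) (G : GammaNine) (u : Fin 16 → ℝ) (x : X E) : Th E :=
  (1 / 2 : ℝ) • ∑ i, ∑ j, tens ((G.γ i * G.γ j) *ᵥ u) (𝔤.br (x i) (x j))

/-- The undeformed supercharge `Q_u`. -/
def Qu (𝔤 : Lie E) (C : Cl (Th E) F) (G : GammaNine) (u : Fin 16 → ℝ) : (X E → F) → X E → F :=
  dirac C (cmap G u) (wpot 𝔤 G u)

/-- Spinor representation `σ(V) = ¼ Σ V_ij γ^i γ^j` of a skew matrix `V`. -/
def sig (G : GammaNine) (V : Matrix (Fin 9) (Fin 9) ℝ) : Matrix (Fin 16) (Fin 16) ℝ :=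
  (1 / 4 : ℝ) • ∑ i, ∑ j, V i j • (G.γ i * G.γ j)

/-- Rotation generator of the plane `(i, j)`: `e_i ↦ e_j`, `e_j ↦ -e_i`. -/
def pl (i j : Fin 9) : Matrix (Fin 9) (Fin 9) ℝ := Matrix.single j i 1 - Matrix.single i j 1

/-- The Ω-deformation generator, weights `(a, b, -a, -b) = (2, 4, -2, -4)`. -/
def V0 : Matrix (Fin 9) (Fin 9) ℝ :=
  (2 : ℝ) • pl 0 1 + (4 : ℝ) • pl 2 3 - (2 : ℝ) • pl 4 5 - (4 : ℝ) • pl 6 7

/-- Gamma matrices with a unit spinor fixed by `SU(4)`. -/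
structure Spn where
  G : GammaNine
  s : Fin 16 → ℝ
  unit : s ⬝ᵥ s = 1
  h8 : G.γ 8 *ᵥ s = s
  h23 : (G.γ 2 * G.γ 3) *ᵥ s = (G.γ 0 * G.γ 1) *ᵥ s
  h45 : (G.γ 4 * G.γ 5) *ᵥ s = (G.γ 0 * G.γ 1) *ᵥ s
  h67 : (G.γ 6 * G.γ 7) *ᵥ s = (G.γ 0 * G.γ 1) *ᵥ s

/-- The second spinor `s' = γ^0 γ^1 s`. -/
def Spn.s' (σ : Spn) : Fin 16 → ℝ := (σ.G.γ 0 * σ.G.γ 1) *ᵥ σ.s

/-- Deformed potential `w_s(x) + ε c_s(V₀ x) + f(φ) ⊗ s'`. -/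
def wd (𝔤 : Lie E) (σ : Spn) (ε : ℝ) (f : E → E) (x : X E) : Th E :=
  wpot 𝔤 σ.G σ.s x + ε • cmap σ.G σ.s (mat V0 x) + tens σ.s' (f (x 8))

/-- Deformed supercharge. -/
def Qd (𝔤 : Lie E) (C : Cl (Th E) F) (σ : Spn) (ε : ℝ) (f : E → E) : (X E → F) → X E → F :=
  dirac C (cmap σ.G σ.s) (wd 𝔤 σ ε f)

/-- `Q_ε`. -/
abbrev Qe (𝔤 : Lie E) (C : Cl (Th E) F) (σ : Spn) (ε : ℝ) : (X E → F) → X E → F :=
  Qd 𝔤 C σ ε fun _ => 0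

/-- The (skew) Yukawa matrix `Σ_i ad x_i ⊗ γ^i - ε 1 ⊗ γ^8 σ(V₀) + f'(φ) ⊗ (s' sᵀ - s s'ᵀ)`. -/
def yuk (𝔤 : Lie E) (σ : Spn) (ε : ℝ) (f : E → E) (x : X E) : Th E →ₗ[ℝ] Th E :=
  (∑ i, mat (σ.G.γ i) ∘ₗ lift 16 (𝔤.br (x i))) - ε • mat (σ.G.γ 8 * sig σ.G V0) +
    mat (Matrix.vecMulVec σ.s' σ.s - Matrix.vecMulVec σ.s σ.s') ∘ₗ
      lift 16 (fderiv ℝ f (x 8)).toLinearMap

/-- Energy density `κ |∇ψ|² + ½ |w|² |ψ|² + ⟨ψ, i S(𝒴) ψ⟩` (the true one has `κ = 1/2`). -/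
def edens (𝔤 : Lie E) (C : Cl (Th E) F) (σ : Spn) (ε : ℝ) (f : E → E) (κ : ℝ) (ψ : X E → F)
    (x : X E) : ℝ :=
  κ * gsq ψ x + 1 / 2 * ‖wd 𝔤 σ ε f x‖ ^ 2 * ‖ψ x‖ ^ 2 +
    (⟪ψ x, C.iS (yuk 𝔤 σ ε f x) (ψ x)⟫_ℂ).re

/-- The undeformed Hamiltonian `-½Δ + ½|w|² + i S(Σ ad x_i ⊗ γ^i)`. -/
def H0 (𝔤 : Lie E) (C : Cl (Th E) F) (σ : Spn) (ψ : X E → F) (x : X E) : F :=
  (-1 / 2 : ℂ) • lap ψ x + ((1 / 2 * ‖wpot 𝔤 σ.G σ.s x‖ ^ 2 : ℝ) : ℂ) • ψ x +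
    C.iS (yuk 𝔤 σ 0 (fun _ => 0) x) (ψ x)

/-- The moment map of `V₀`. -/
def mu (x : X E) : ℝ :=
  (‖x 0‖ ^ 2 + ‖x 1‖ ^ 2) + 2 * (‖x 2‖ ^ 2 + ‖x 3‖ ^ 2) - (‖x 4‖ ^ 2 + ‖x 5‖ ^ 2) -
    2 * (‖x 6‖ ^ 2 + ‖x 7‖ ^ 2)

/-- Gauss law at a point. -/
def GaussAt (𝔤 : Lie E) (C : Cl (Th E) F) (ψ : X E → F) (x : X E) : Prop :=
  ∀ ξ : E, WtAt (lift 9 (𝔤.br ξ)) (C.S (lift 16 (𝔤.br ξ))) 0 ψ x

/-- Weight `k` under the rotation generator `V`, at a point. -/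
def RotAt (C : Cl (Th E) F) (G : GammaNine) (V : Matrix (Fin 9) (Fin 9) ℝ) (k : ℝ)
    (ψ : X E → F) (x : X E) : Prop :=
  WtAt (mat V) (C.S (mat (sig G V))) k ψ x

/-- A set of rotation weights `(V, k)`. -/
abbrev Wts := Set (Matrix (Fin 9) (Fin 9) ℝ × ℝ)

/-- All generators are skew. -/
def Wts.OK (𝒱 : Wts) : Prop := ∀ p ∈ 𝒱, p.1ᵀ = -p.1

/-- The test class: gauge invariant core vectors with the rotation weights `𝒱`. -/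
def Cls (𝔤 : Lie E) (C : Cl (Th E) F) (G : GammaNine) (𝒱 : Wts) (ψ : X E → F) : Prop :=
  Core ψ ∧ (∀ x, GaussAt 𝔤 C ψ x) ∧ ∀ p ∈ 𝒱, ∀ x, RotAt C G p.1 p.2 ψ x

/-- The finite symmetries generated by the gauge algebra and `𝒱`. -/
def flows (𝔤 : Lie E) (C : Cl (Th E) F) (G : GammaNine) (𝒱 : Wts) : Syms (X E) F :=
  {p | (∃ ξ : E, p = (rexp' (lift 9 (𝔤.br ξ)), NormedSpace.exp (C.S (lift 16 (𝔤.br ξ))))) ∨
    ∃ q ∈ 𝒱, ∃ t : ℝ, p = (rexp' (t • mat q.1),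
      NormedSpace.exp ((t : ℂ) • (C.S (mat (sig G q.1)) + ((q.2 : ℂ) * Complex.I) • 1)))}

/-- The sector of `Q_ε`: no condition at `ε = 0`, weight `k ≥ 0` under `V₀` otherwise. -/
def Sect (𝔤 : Lie E) (C : Cl (Th E) F) (σ : Spn) (ε k : ℝ) (ψ : X E → F) : Prop :=
  Cls 𝔤 C σ.G ∅ ψ ∧ (ε = 0 ∨ (0 ≤ k ∧ ∀ x, RotAt C σ.G V0 k ψ x))

/-- The neutral sector. -/
def neut : Wts := {(V0, 0)}

/-- Fermion parity `exp(2π S(σ(e₀₁)))`. -/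
def par (C : Cl (Th E) F) (G : GammaNine) : F →L[ℂ] F :=
  NormedSpace.exp (((2 * Real.pi : ℝ) : ℂ) • C.S (mat (sig G (pl 0 1))))

/-- `|Z|²`: the squared norm of the first eight matrices. -/
def zsq (x : X E) : ℝ := ∑ i : Fin 8, ‖x i.castSucc‖ ^ 2

variable [MeasurableSpace E] [BorelSpace E]

/-- Hardy inequality at infinity, with the `ε`-gap. -/
def Hinf (𝔤 : Lie E) (C : Cl (Th E) F) (σ : Spn) : Prop :=
  ∃ R ε₀ c : ℝ, 0 < ε₀ ∧ 0 < c ∧ ∀ ε k : ℝ, 0 ≤ ε → ε ≤ ε₀ → ∀ ψ, Sect 𝔤 C σ ε k ψ →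
    (∀ x, ‖x‖ ≤ R → ψ x = 0) →
    ∫ x, (1 / ‖x‖ ^ 2 + c * ε) * ‖ψ x‖ ^ 2 ≤ ∫ x, ‖Qe 𝔤 C σ ε ψ x‖ ^ 2

/-- Tail inequality (all gauge invariant states). -/
def TailIneq (𝔤 : Lie E) (C : Cl (Th E) F) (σ : Spn) : Prop :=
  ∃ K : ℝ, 0 < K ∧ ∀ ε L : ℝ, 0 ≤ ε → ε ≤ 1 → 1 ≤ L → ∀ ψ, Cls 𝔤 C σ.G ∅ ψ →
    ∫ x, (if L ≤ ‖x‖ then 1 / ‖x‖ ^ 2 else 0) * ‖ψ x‖ ^ 2 ≤
      K * ((∫ x, ‖Qe 𝔤 C σ ε ψ x‖ ^ 2) + (ε + L ^ (-(5 / 2) : ℝ)) * ∫ x, ‖ψ x‖ ^ 2)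

/-- Global Hardy inequality in the sectors of weight `k ≥ 1`. -/
def GapIneq (𝔤 : Lie E) (C : Cl (Th E) F) (σ : Spn) : Prop :=
  ∃ c ε₁ : ℝ, 0 < c ∧ 0 < ε₁ ∧ ∀ ε k : ℝ, 0 ≤ ε → ε ≤ ε₁ → 1 ≤ k → ∀ ψ,
    Cls 𝔤 C σ.G {(V0, k)} ψ →
    c * ∫ x, (1 / (1 + ‖x‖ ^ 2) + ε) * ‖ψ x‖ ^ 2 ≤ ∫ x, ‖Qe 𝔤 C σ ε ψ x‖ ^ 2

end Model

/-! ## 4. Compact groups acting on the Lie algebra; matrix realisations -/

section Groups

variable {E F : Type} [NormedAddCommGroup E] [InnerProductSpace ℝ E] [FiniteDimensional ℝ E]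
  [NormedAddCommGroup F] [InnerProductSpace ℂ F] [FiniteDimensional ℂ F]

/-- A compact group with bi-invariant probability measure acting through all `exp (ad ξ)`. -/
structure Grp (𝔤 : Lie E) (K : Type) [Group K] [TopologicalSpace K] [IsTopologicalGroup K]
    [CompactSpace K] [MeasurableSpace K] [BorelSpace K] where
  act : K →* (E ≃ₗᵢ[ℝ] E)
  cont : Continuous fun p : K × E => act p.1 p.2
  exp_of : ∀ k, ∃ ξ : E, ∀ v, act k v = rexp' (𝔤.br ξ) v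
  of_exp : ∀ ξ : E, ∃ k, ∀ v, act k v = rexp' (𝔤.br ξ) v
  μ : Measure K
  prob : IsProbabilityMeasure μ
  left : μ.IsMulLeftInvariant
  right : μ.IsMulRightInvariant
  pos : μ.IsOpenPosMeasure

variable {K : Type} [Group K] [TopologicalSpace K] [IsTopologicalGroup K]
    [CompactSpace K] [MeasurableSpace K] [BorelSpace K]

/-- The action on configurations. -/
def Grp.ax {𝔤 : Lie E} (Γ : Grp 𝔤 K) (k : K) : X E →ₗᵢ[ℝ] X E :=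
  liftI 9 (Γ.act k).toLinearIsometry

/-- Orbit average `N(x) = ∫ p(k x) dk`. -/
def Grp.avg {𝔤 : Lie E} (Γ : Grp 𝔤 K) (p : X E → ℝ) (x : X E) : ℝ := ∫ k, p (Γ.ax k x) ∂Γ.μ

/-- The spin lift of the group action on the Clifford module. -/
structure Rep {𝔤 : Lie E} (Γ : Grp 𝔤 K) (C : Cl (Th E) F) where
  ρ : K →* (F →L[ℂ] F)
  cont : Continuous ρ
  spin : ∀ k (ξ : E), (∀ v, Γ.act k v = rexp' (𝔤.br ξ) v) →
    ρ k = NormedSpace.exp (C.S (lift 16 (𝔤.br ξ)))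

/-- Invariance under all rotations of the spatial index. -/
def RotInv (h : X E → ℝ) : Prop :=
  ∀ O : Matrix (Fin 9) (Fin 9) ℝ, Oᵀ * O = 1 → ∀ x, h (mat O x) = h x

/-- Realisation of `E` as traceless Hermitian `N × N` matrices (`surj`: all of them). -/
structure MatSys (N : ℕ) (𝔤 : Lie E) where
  m : E →ₗ[ℝ] Matrix (Fin N) (Fin N) ℂ
  herm : ∀ v, (m v).IsHermitian
  traceless : ∀ v, (m v).trace = 0
  inner : ∀ u v, ⟪u, v⟫_ℝ = (m u * m v).trace.re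
  br : ∀ u v, m (𝔤.br u v) = Complex.I • (m u * m v - m v * m u)
  surj : ∀ A : Matrix (Fin N) (Fin N) ℂ, A.IsHermitian → A.trace = 0 → ∃ v, m v = A

end Groups

/-! ## 5. Levi data and the Born–Oppenheimer objects -/

section LeviSec

variable {E Z L H F : Type}
  [NormedAddCommGroup E] [InnerProductSpace ℝ E] [FiniteDimensional ℝ E]
  [NormedAddCommGroup Z] [InnerProductSpace ℝ Z] [FiniteDimensional ℝ Z]
  [NormedAddCommGroup L] [InnerProductSpace ℝ L] [FiniteDimensional ℝ L]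
  [NormedAddCommGroup H] [InnerProductSpace ℝ H] [FiniteDimensional ℝ H]
  [NormedAddCommGroup F] [InnerProductSpace ℂ F] [FiniteDimensional ℂ F]

/-- Levi decomposition `E = Z ⊕ L ⊕ H` (centre, semisimple part, heavy = off-diagonal blocks);
`P` indexes the pairs of clusters. -/
structure Levi (𝔤 : Lie E) (Z L H P : Type)
    [NormedAddCommGroup Z] [InnerProductSpace ℝ Z] [FiniteDimensional ℝ Z]
    [NormedAddCommGroup L] [InnerProductSpace ℝ L] [FiniteDimensional ℝ L]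
    [NormedAddCommGroup H] [InnerProductSpace ℝ H] [FiniteDimensional ℝ H] [Fintype P] where
  iZ : Z →ₗᵢ[ℝ] E
  iL : L →ₗᵢ[ℝ] E
  iH : H →ₗᵢ[ℝ] E
  oZL : ∀ a b, ⟪iZ a, iL b⟫_ℝ = 0
  oZH : ∀ a b, ⟪iZ a, iH b⟫_ℝ = 0
  oLH : ∀ a b, ⟪iL a, iH b⟫_ℝ = 0
  span : ∀ v, ∃ a b c, v = iZ a + iL b + iH c
  𝔩 : Lie L
  brZZ : ∀ a b, 𝔤.br (iZ a) (iZ b) = 0
  brZL : ∀ a b, 𝔤.br (iZ a) (iL b) = 0
  brLL : ∀ a b, 𝔤.br (iL a) (iL b) = iL (𝔩.br a b)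
  pr : P → H →ₗ[ℝ] H
  pr_sym : ∀ p u v, ⟪pr p u, v⟫_ℝ = ⟪u, pr p v⟫_ℝ
  pr_idem : ∀ p v, pr p (pr p v) = pr p v
  pr_orth : ∀ p q, p ≠ q → ∀ v, pr p (pr q v) = 0
  pr_sum : ∀ v, ∑ p, pr p v = v
  I : H →ₗ[ℝ] H
  I_cx : IsCx I
  I_pr : ∀ p v, I (pr p v) = pr p (I v)
  α : P → Z →ₗ[ℝ] ℝ
  brZH : ∀ a v, 𝔤.br (iZ a) (iH v) = iH (∑ p, α p a • I (pr p v))
  adL : L →ₗ[ℝ] H →ₗ[ℝ] H
  brLH : ∀ a v, 𝔤.br (iL a) (iH v) = iH (adL a v)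
  adL_I : ∀ a v, adL a (I v) = I (adL a v)
  adL_pr : ∀ a p v, adL a (pr p v) = pr p (adL a v)
  trL : ∀ a p, LinearMap.trace ℝ H (I ∘ₗ pr p ∘ₗ adL a) = 0
  hhh : ∀ p u v y, ⟪iH (pr p u), 𝔤.br (iH (pr p v)) (iH y)⟫_ℝ = 0

variable {P : Type} [Fintype P] {𝔤 : Lie E} (D : Levi 𝔤 Z L H P)

namespace Levi

/-- Central component. -/
def zc : X E →ₗ[ℝ] X Z := lift 9 (LinearMap.adjoint D.iZ.toLinearMap)
/-- Semisimple (light) component. -/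
def lc : X E →ₗ[ℝ] X L := lift 9 (LinearMap.adjoint D.iL.toLinearMap)
/-- Heavy component. -/
def yc : X E →ₗ[ℝ] X H := lift 9 (LinearMap.adjoint D.iH.toLinearMap)
/-- Reassembling. -/
def asm (z : X Z) (l : X L) (y : X H) : X E :=
  liftI 9 D.iZ z + liftI 9 D.iL l + liftI 9 D.iH y

/-- `ad` of a central element on the heavy space. -/
def adZ (a : Z) : H →ₗ[ℝ] H := ∑ p, D.α p a • (D.I ∘ₗ D.pr p)
/-- Mass of the pair `p`. -/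
def M (p : P) (z : X Z) : ℝ := √(∑ i, D.α p (z i) ^ 2)
/-- Real dimension of the heavy block `p`. -/
def m (p : P) : ℕ := Module.finrank ℝ (LinearMap.range (D.pr p))
/-- Background gauge condition `Φ = Σ_i ⟦z_i, y_i⟧`. -/
def Phi (z : X Z) (y : X H) : H := ∑ i, D.adZ (z i) (y i)
/-- `Σ_p M_p^{-2} pr_p`. -/
def Minv (z : X Z) : H →ₗ[ℝ] H := ∑ p, ((D.M p z) ^ 2)⁻¹ • D.pr p
/-- Right inverse of `y ↦ Φ(z, y)` along the gauge-like directions `n_p ⊗ H_p`. -/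
def lam (z : X Z) (t : H) : X H := WithLp.toLp 2 fun i => -D.adZ (z i) (D.Minv z t)
/-- Transverse part of `y`. -/
def perp (z : X Z) (y : X H) : X H := y - D.lam z (D.Phi z y)
/-- Gaussian exponent `h = ½ Σ_p M_p |y_p^⊥|²`. -/
def hq (z : X Z) (y : X H) : ℝ := 1 / 2 * ∑ p, D.M p z * ‖lift 9 (D.pr p) (D.perp z y)‖ ^ 2
/-- Leading Faddeev–Popov determinant. -/
def jac (z : X Z) : ℝ := ∏ p, D.M p z ^ (2 * D.m p)
/-- The fibre weight `g(Φ) j(z)`, `g(t) = smoothTransition (2 - 4 ‖t‖²)`. -/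
def wt (z : X Z) (y : X H) : ℝ := Real.smoothTransition (2 - 4 * ‖D.Phi z y‖ ^ 2) * D.jac z
/-- The weight as a function on configuration space. -/
def wtX (x : X E) : ℝ := D.wt (D.zc x) (D.yc x)
/-- The heavy complex structure `Σ_p I pr_p ⊗ γ(n_p)`. -/
def J (G : GammaNine) (z : X Z) : Th H →ₗ[ℝ] Th H :=
  ∑ p, ∑ i, (D.α p (z i) / D.M p z) • (mat (G.γ i) ∘ₗ lift 16 (D.I ∘ₗ D.pr p))
/-- Fermions of the three blocks. -/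
def CZ (C : Cl (Th E) F) : Cl (Th Z) F := C.comap (liftI 16 D.iZ)
/-- Fermions of the three blocks. -/
def CL (C : Cl (Th E) F) : Cl (Th L) F := C.comap (liftI 16 D.iL)
/-- Fermions of the three blocks. -/
def CH (C : Cl (Th E) F) : Cl (Th H) F := C.comap (liftI 16 D.iH)
/-- Heavy fermion vacuum. -/
def Pi (C : Cl (Th E) F) (G : GammaNine) (z : X Z) : F →L[ℂ] F := (D.CH C).vac (D.J G z)
/-- Heavy fermion parity `exp(π S(I ⊗ 1))`. -/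
def Gam (C : Cl (Th E) F) : F →L[ℂ] F :=
  NormedSpace.exp (((Real.pi : ℝ) : ℂ) • (D.CH C).S (lift 16 D.I))
/-- Heavy-odd part `(u - Γ_h u)/2`. -/
def odd (C : Cl (Th E) F) (u : X E → F) (x : X E) : F := (1 / 2 : ℂ) • (u x - D.Gam C (u x))
/-- Derivative of `x ↦ Φ(z(x), y(x))`. -/
def dPhi (x v : X E) : H := D.Phi (D.zc x) (D.yc v) + D.Phi (D.zc v) (D.yc x)
/-- Infinitesimal gauge transformation by a heavy element. -/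
def gH (ξ : H) (x : X E) : X E := lift 9 (𝔤.br (D.iH ξ)) x
/-- The Faddeev–Popov operator `ξ ↦ dΦ_x(ξ · x)`. -/
def Dop (x : X E) : H →L[ℝ] H :=
  LinearMap.toContinuousLinearMap
    { toFun := fun ξ => D.dPhi x (D.gH ξ x)
      map_add' := fun a b => by
        simp only [dPhi, gH, Phi, zc, yc, lift, map_add, LinearMap.add_apply, LinearMap.coe_mk,
          AddHom.coe_mk, adZ, Finset.sum_add_distrib, add_smul, LinearMap.sum_apply,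
          LinearMap.smul_apply]
        abel
      map_smul' := fun r a => by
        simp only [dPhi, gH, Phi, zc, yc, lift, map_smul, LinearMap.smul_apply, LinearMap.coe_mk,
          AddHom.coe_mk, adZ, LinearMap.sum_apply, RingHom.id_apply, smul_add, Finset.smul_sum,
          smul_eq_mul, mul_smul] }
/-- Gauge compensator `η(x, v) = D(x)⁻¹ dΦ_x v`. -/
def eta (x v : X E) : H := Ring.inverse (D.Dop x) (D.dPhi x v)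
/-- Projection along the gauge orbit onto `ker dΦ`. -/
def tau (x v : X E) : X E := v - D.gH (D.eta x v) x
/-- Explicit projection onto `ker dΦ` along the gauge-like directions. -/
def kap (x v : X E) : X E := v - liftI 9 D.iH (D.lam (D.zc x) (D.dPhi x v))
/-- The conical tube. -/
def tube (κ θ : ℝ) : Set (X E) :=
  {x | (∀ p, ‖x‖ ≤ κ * D.M p (D.zc x)) ∧ ‖D.lc x‖ + ‖D.yc x‖ ≤ θ * ‖x‖}
/-- Transverse gradient `Σ_h ‖∂_{h^⊥} u‖²`. -/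
def gperp (u : X E → F) (x : X E) : ℝ :=
  ∑ i, ‖fderiv ℝ u x (liftI 9 D.iH (D.perp (D.zc x) (stdOrthonormalBasis ℝ (X H) i)))‖ ^ 2
/-- Light gradient. -/
def glight (u : X E → F) (x : X E) : ℝ :=
  ∑ i, ‖fderiv ℝ u x (liftI 9 D.iZ (stdOrthonormalBasis ℝ (X Z) i))‖ ^ 2 +
    ∑ i, ‖fderiv ℝ u x (liftI 9 D.iL (stdOrthonormalBasis ℝ (X L) i))‖ ^ 2
/-- The light weight (right-hand side of the Born–Oppenheimer inequality). -/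
def WL (a c β lm ε : ℝ) (z : X Z) (l : X L) : ℝ :=
  a / ‖z‖ ^ 2 + c * ε + β * ((∑ p, 1 / D.M p z ^ 2) + if lm * ‖z‖ ≤ ‖l‖ then 1 / ‖l‖ ^ 2 else 0)

variable [MeasurableSpace E] [BorelSpace E] [MeasurableSpace Z] [BorelSpace Z]
  [MeasurableSpace L] [BorelSpace L] [MeasurableSpace H] [BorelSpace H]

/-- Weighted integral `P(h) = ∫ g(Φ) j h`. -/
def PI (h : X E → ℝ) : ℝ := ∫ x, D.wtX x * h x
/-- Normalisation of the Gaussian. -/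
def nu (z : X Z) : ℝ := √(∫ y, D.wt z y * Real.exp (-2 * D.hq z y))
/-- The effective wave function. -/
def red (C : Cl (Th E) F) (G : GammaNine) (u : X E → F) (q : X Z × X L) : F :=
  (((D.nu q.1)⁻¹ : ℝ) : ℂ) •
    ∫ y, ((D.wt q.1 y * Real.exp (-D.hq q.1 y) : ℝ) : ℂ) • D.Pi C G q.1 (u (D.asm q.1 q.2 y))
/-- The projected light supercharge `Π (Q_cm + Q_L) f`. -/
def Qlight (C : Cl (Th E) F) (σ : Spn) (ε : ℝ) (f : X Z × X L → F) (q : X Z × X L) : F :=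
  D.Pi C σ.G q.1
    (dirac (D.CZ C) (cmap σ.G σ.s) (fun z => ε • cmap σ.G σ.s (mat V0 z)) (fun z => f (z, q.2)) q.1 +
      Qe D.𝔩 (D.CL C) σ ε (fun l => f (q.1, l)) q.2)

/-- Local class: a core function which, on `‖Φ‖ < 1`, lives in the tube far out and satisfies
the Gauss law and the rotation laws `𝒱`. -/
def Loc (C : Cl (Th E) F) (G : GammaNine) (𝒱 : Wts) (κ θ R : ℝ) (u : X E → F) : Prop :=
  Core u ∧ ∀ x, ‖D.Phi (D.zc x) (D.yc x)‖ < 1 →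
    (x ∈ tsupport u → x ∈ D.tube κ θ ∧ R ≤ ‖x‖) ∧ GaussAt 𝔤 C u x ∧
      ∀ p ∈ 𝒱, RotAt C G p.1 p.2 u x

/-- Admissible light weights. -/
def Adm (Ω : ℝ) (wl : X Z × X L → ℝ) : Prop :=
  ContDiffOn ℝ ∞ wl {q | q.1 ≠ 0} ∧
    ∀ q : X Z × X L, q.1 ≠ 0 → 0 < wl q ∧ ‖fderiv ℝ wl q‖ ≤ Ω * wl q / ‖q.1‖

/-- Weighted energy inequality (E1) with constant function `B τ Ω`. -/
def E1 (C : Cl (Th E) F) (σ : Spn) (ε : ℝ) (B : ℝ → ℝ → ℝ) (u : X E → F) : Prop :=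
  ∀ τ Ω : ℝ, 0 < τ → τ < 1 / 2 → 0 ≤ Ω → ∀ wl : X Z × X L → ℝ, Adm Ω wl →
    D.PI (fun x => wl (D.zc x, D.lc x) * edens 𝔤 C σ ε (fun _ => 0) (1 / 2 - τ) u x) ≤
      2 * D.PI (fun x => wl (D.zc x, D.lc x) * ‖Qe 𝔤 C σ ε u x‖ ^ 2) +
        B τ Ω * D.PI (fun x => wl (D.zc x, D.lc x) / ‖x‖ ^ 2 * ‖u x‖ ^ 2)

/-- Moment inequality (E2). -/
def E2 (C : Cl (Th E) F) (σ : Spn) (ε B : ℝ) (u : X E → F) : Prop :=
  D.PI (fun x => ‖D.yc x‖ ^ 2 / ‖x‖ ^ 2 * gsq u x + ‖D.yc x‖ ^ 4 * ‖u x‖ ^ 2) ≤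
    B * (D.PI (fun x => ‖Qe 𝔤 C σ ε u x‖ ^ 2) + D.PI (fun x => 1 / ‖x‖ ^ 2 * ‖u x‖ ^ 2))

/-- The part of `u` orthogonal (fibrewise) to Gaussian ⊗ vacuum. -/
def dfc (C : Cl (Th E) F) (G : GammaNine) (u : X E → F) (x : X E) : F :=
  u x - ((Real.exp (-D.hq (D.zc x) (D.yc x)) / D.nu (D.zc x) : ℝ) : ℂ) •
    D.red C G u (D.zc x, D.lc x)

/-- The fine estimate for the heavy-odd part. -/
def FineIneq (C : Cl (Th E) F) (σ : Spn) (ε B : ℝ) (u : X E → F) : Prop :=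
  D.PI (fun x => D.gperp (D.odd C u) x +
      (‖x‖ ^ 2 * ‖D.yc x‖ ^ 2 + ‖x‖) * ‖D.odd C u x‖ ^ 2) ≤
    B * (D.PI (fun x => ‖Qe 𝔤 C σ ε u x‖ ^ 2) + D.PI (fun x => (1 / ‖x‖ ^ 2 + ε) * ‖u x‖ ^ 2))

/-- Smallness of the defect and of the light gradient. -/
def DefIneq (C : Cl (Th E) F) (σ : Spn) (ε δ : ℝ) (u : X E → F) : Prop :=
  D.PI (fun x => 1 / ‖D.zc x‖ ^ 2 * ‖D.dfc C σ.G u x‖ ^ 2 + 1 / ‖D.zc x‖ ^ 3 * D.glight u x) ≤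
    δ * (D.PI (fun x => ‖Qe 𝔤 C σ ε u x‖ ^ 2) + D.PI (fun x => 1 / ‖x‖ ^ 2 * ‖u x‖ ^ 2))

/-- Properties of an effective wave function. -/
def Eff (C : Cl (Th E) F) (G : GammaNine) (𝒱 : Wts) (κ θ R : ℝ) (f : X Z × X L → F) : Prop :=
  Core f ∧ (∀ q, D.Pi C G q.1 (f q) = f q) ∧
    (∀ z l, GaussAt D.𝔩 (D.CL C) (fun l' => f (z, l')) l) ∧
    (∀ p ∈ 𝒱, ∀ q : X Z × X L, fderiv ℝ f q (mat p.1 q.1, mat p.1 q.2) =
      C.S (mat (sig G p.1)) (f q) + ((p.2 : ℂ) * Complex.I) • f q) ∧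
    ∀ q ∈ tsupport f, R ≤ ‖q.1‖ ∧ (∀ p, ‖q.1‖ ≤ κ * D.M p q.1) ∧ ‖q.2‖ ≤ θ * ‖q.1‖

/-- The rotation laws `𝒱` kill every effective wave function. -/
def Kill (C : Cl (Th E) F) (G : GammaNine) (𝒱 : Wts) : Prop :=
  ∀ κ θ R : ℝ, 0 < R → ∀ f, D.Eff C G 𝒱 κ θ R f → ∀ q, f q = 0

/-- The gap property of a region `Ω` (approximate uniqueness of the slice). -/
def GapProp (κ θ : ℝ) (Ω : Set (X E)) : Prop :=
  ∀ x ∈ Ω, ‖D.Phi (D.zc x) (D.yc x)‖ < 1 → x ∈ D.tube (2 * κ) (2 * θ) → x ∈ D.tube κ θ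

/-- A Faddeev–Popov weight adapted to the tube. -/
def FPW (κ θ : ℝ) (p : X E → ℝ) : Prop :=
  ContDiff ℝ ∞ p ∧ (∀ x, 0 ≤ p x) ∧ RotInv p ∧
    (∀ x, p x ≠ 0 → ‖D.Phi (D.zc x) (D.yc x)‖ < 1 ∧ x ∈ D.tube (2 * κ) (2 * θ)) ∧
    ∀ x ∈ D.tube κ θ, 1 ≤ ‖x‖ → p x = D.wtX x

end Levi

end LeviSec

end Crest.Agent.R330

end
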