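import Crest.Agent.R330.BF.Low
import Crest.Agent.R330.BF.Up

/-!
# Row 330, block BF: fine estimate of the heavy-odd part (interface; statements frozen)
-/

set_option autoImplicit false
set_option linter.unusedSectionVars false

noncomputable section

open MeasureTheory Filter Topology
open scoped InnerProductSpace ContDiff Matrix
open Crest.MathPhysics.MatrixQM (GammaNine)

namespace Crest.Agent.R330

variable {E Z L H F : Type}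
  [NormedAddCommGroup E] [InnerProductSpace ℝ E] [FiniteDimensional ℝ E]
  [NormedAddCommGroup Z] [InnerProductSpace ℝ Z] [FiniteDimensional ℝ Z]
  [NormedAddCommGroup L] [InnerProductSpace ℝ L] [FiniteDimensional ℝ L]
  [NormedAddCommGroup H] [InnerProductSpace ℝ H] [FiniteDimensional ℝ H]
  [NormedAddCommGroup F] [InnerProductSpace ℂ F] [FiniteDimensional ℂ F]
  [MeasurableSpace E] [BorelSpace E] [MeasurableSpace Z] [BorelSpace Z]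
  [MeasurableSpace L] [BorelSpace L] [MeasurableSpace H] [BorelSpace H]
  {P : Type} [Fintype P] {𝔤 : Lie E} (D : Levi 𝔤 Z L H P) (C : Cl (Th E) F) (σ : Spn)

namespace Levi

theorem fine_loc2 {κ : ℝ} (hκ : 1 ≤ κ) (B₂ : ℝ) : ∃ B θ₀ R₀ : ℝ, 0 < B ∧ 0 < θ₀ ∧
    ∀ θ, 0 < θ → θ ≤ θ₀ → ∀ R, R₀ ≤ R → ∀ ε, 0 ≤ ε → ε ≤ 1 → ∀ u,
      D.Loc2 C κ θ R u → D.E2 C σ ε B₂ u → D.FineIneq C σ ε B u := by
  obtain ⟨c, θ₁, B₁, R₀, hc, h₁, hB₁, hR₀, H₁⟩ := D.A0_lower C σ hκ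
  obtain ⟨θ₂, B₃, h₂, hB₃, H₂⟩ := D.A_upper C σ hκ (show 0 < c / 8 by positivity)
  obtain ⟨θ₃, B₄, h₃, hB₄, H₃⟩ := D.A_sub_A0 C σ hκ
  obtain ⟨θ₄, h₄, H₄⟩ := D.tube_Ureg hκ
  refine ⟨2 / c * (2 * B₃ + B₁) * (|B₂| + 2), min (min θ₁ θ₂) (min (min θ₃ θ₄) (min 1 (c / 8 / B₄))), R₀,
    by positivity, by positivity, fun θ hθ hθ' R hR ε hε hε1 u hu h2 => ?_⟩
  simp only [le_min_iff] at hθ'
  obtain ⟨⟨a1, a2⟩, ⟨a3, a4⟩, a5, a6⟩ := hθ'
  have hR0 := hR₀.trans_le hR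
  have hK : IsCompact (tsupport u) := hu.1.2
  have hKU : tsupport u ⊆ D.Ureg := fun x hx => H₄ θ hθ.le a4 x (hu.2.1 x hx).1 (hu.ne hR0 hx)
  have hm : CU D.Ureg (D.odd C u) := ⟨D.core_odd C hu.1, (D.tsupport_odd C u).trans hKU⟩
  have k1 := H₁ θ hθ.le a1 R hR u hu
  have k2 := H₂ θ hθ.le a2 R hR0 ε hε hε1 u hu
  have sv := D.tsupport_odd C u
  have gE := D.gd_Ecal hKU hm.1 sv
  have gA : Gd (tsupport u) (D.opA C σ (D.odd C u)) :=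
    .of_core (D.CU_opA C σ hm).1 ((tsupport_fop ..).trans sv)
  have gA0 : Gd (tsupport u) (D.opA0 C σ (D.odd C u)) :=
    .of_core (D.CU_opA0 C σ hm).1 ((tsupport_fop ..).trans sv)
  have gR := fun ε => D.gd_Err (fun x hx => hu.ne hR0 hx) ε hu.1 subset_rfl
  have gu : Gd (tsupport u) u := .of_core hu.1 subset_rfl
  have k3 := D.PI_mono hK gA0.norm_sq ((gA.norm_sq.const_mul 2).add (gE.const_mul (c / 4))) fun x hx _ => by
    have b1 := H₃ θ hθ.le a3 x (hu.2.1 x hx).1 (hu.ne hR0 hx) (D.odd C u)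
    have b2 := norm_sub_le (D.opA C σ (D.odd C u) x) (D.opA C σ (D.odd C u) x - D.opA0 C σ (D.odd C u) x)
    rw [sub_sub_cancel] at b2
    have b3 := pow_le_pow_left₀ (norm_nonneg _) b2 2
    have b4 : B₄ * θ ^ 2 ≤ c / 8 := by
      have := (le_div_iff₀ hB₄).1 a6
      nlinarith [mul_le_mul_of_nonneg_left a5 (mul_pos hθ hB₄).le]
    have b5 := mul_le_mul_of_nonneg_right b4 (D.Ecal_nonneg (D.odd C u) x)
    nlinarith [sq_nonneg (‖D.opA C σ (D.odd C u) x‖ - ‖D.opA C σ (D.odd C u) x - D.opA0 C σ (D.odd C u) x‖)]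
  rw [D.PI_add hK (gA.norm_sq.const_mul 2) (gE.const_mul _), D.PI_const_mul, D.PI_const_mul] at k3
  have k4 : D.PI (D.Err 0 u) ≤ D.PI (D.Err ε u) := D.PI_mono hK (gR 0) (gR ε) fun x _ _ => by
    unfold Err; gcongr
  have cy := D.continuous_yc
  have hne : ∀ x ∈ tsupport u, ‖x‖ ^ 2 ≠ 0 := fun x hx => pow_ne_zero _ (norm_ne_zero_iff.2 (hu.ne hR0 hx))
  have c1 : ContinuousOn (fun x : X E => 1 / ‖x‖ ^ 2) (tsupport u) :=
    ContinuousOn.div (by fun_prop) (by fun_prop) hne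
  have g1 : Gd (tsupport u) fun x => ‖D.yc x‖ ^ 2 / ‖x‖ ^ 2 * gsq u x + ‖D.yc x‖ ^ 4 * ‖u x‖ ^ 2 :=
    ((Gd.gsq hu.1 subset_rfl).mul_left (ContinuousOn.div (by fun_prop) (by fun_prop) hne)).add
      (gu.norm_sq.mul_left (by fun_prop))
  have g2 : Gd (tsupport u) fun x => (1 / ‖x‖ ^ 2 + ε) * ‖u x‖ ^ 2 :=
    gu.norm_sq.mul_left (c1.add continuousOn_const)
  have k5 : D.PI (D.Err ε u) = _ := (D.PI_congr fun x _ => by unfold Err; ring).trans (D.PI_add hK g1 g2)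
  have k6 := D.PI_mono hK (gu.norm_sq.mul_left c1) g2 fun x _ _ => by gcongr; linarith
  have p1 := D.PI_nonneg fun x => sq_nonneg ‖Qe 𝔤 C σ ε u x‖
  have p2 : 0 ≤ D.PI fun x => 1 / ‖x‖ ^ 2 * ‖u x‖ ^ 2 := D.PI_nonneg fun x => by positivity
  unfold E2 at h2
  change D.PI (D.Ecal (D.odd C u)) ≤ _
  generalize D.PI (fun x => ‖Qe 𝔤 C σ ε u x‖ ^ 2) = q at *
  generalize D.PI (fun x => (1 / ‖x‖ ^ 2 + ε) * ‖u x‖ ^ 2) = w at *
  generalize D.PI (fun x => 1 / ‖x‖ ^ 2 * ‖u x‖ ^ 2) = w' at *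
  have k7 : q + D.PI (D.Err ε u) ≤ (|B₂| + 2) * (q + w) := by
    have := mul_le_mul (le_abs_self B₂) (show q + w' ≤ q + w by linarith) (by linarith) (abs_nonneg _)
    linarith
  have k8 := mul_le_mul_of_nonneg_left k7 (show 0 ≤ 2 * B₃ + B₁ by positivity)
  have k9 := mul_le_mul_of_nonneg_left k4 hB₁.le
  rw [mul_assoc, mul_assoc, div_mul_eq_mul_div, le_div_iff₀ hc]
  nlinarith [mul_nonneg hB₁.le p1]

/-- Fine estimate (the `A`/`B` splitting, see the blueprint §BF).  Only the Gauss law is used. -/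
theorem fine {κ : ℝ} (hκ : 1 ≤ κ) (B₁ : ℝ → ℝ → ℝ) (B₂ : ℝ) : ∃ B θ₀ : ℝ, 0 < B ∧ 0 < θ₀ ∧
    ∀ θ, 0 < θ → θ ≤ θ₀ → ∃ R₀ : ℝ, ∀ R, R₀ ≤ R → ∀ ε, 0 ≤ ε → ε ≤ 1 → ∀ u,
      D.Loc C σ.G ∅ κ θ R u → D.E1 C σ ε B₁ u → D.E2 C σ ε B₂ u → D.FineIneq C σ ε B u := by
  obtain ⟨B, θ₀, R₀, hB, h0, H⟩ := D.fine_loc2 C σ hκ B₂
  refine ⟨B, θ₀, hB, h0, fun θ hθ hθ' => ⟨R₀, fun R hR ε hε hε1 u hu _ h2 => ?_⟩⟩
  obtain ⟨u', hu', e⟩ := D.exists_loc2 C σ hu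
  have e0 := fun x hx => (e x hx).eq_of_nhds
  have e1 := fun x hx => (e x hx).fderiv_eq (𝕜 := ℝ)
  have eQ : (D.PI fun x => ‖Qe 𝔤 C σ ε u' x‖ ^ 2) = D.PI fun x => ‖Qe 𝔤 C σ ε u x‖ ^ 2 :=
    D.PI_congr fun x hx => by simp only [Qd, dirac, e0 x hx, e1 x hx]
  have := H θ hθ hθ' R hR ε hε hε1 u' hu' (by
    unfold E2 at *
    rw [eQ]
    refine (D.PI_congr fun x hx => ?_).trans_le (h2.trans_eq ?_)
    · simp only [gsq, e0 x hx, e1 x hx]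
    · congr 2
      exact D.PI_congr fun x hx => by simp only [e0 x hx])
  unfold FineIneq at *
  rw [eQ] at this
  refine (D.PI_congr fun x hx => ?_).trans_le (this.trans_eq ?_)
  · have : D.odd C u' =ᶠ[𝓝 x] D.odd C u := (e x hx).mono fun y hy => by simp only [odd, hy]
    simp only [gperp, this.eq_of_nhds, this.fderiv_eq]
  · congr 2
    exact D.PI_congr fun x hx => by simp only [e0 x hx]

end Levi

end Crest.Agent.R330

end
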