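import Crest.Agent.R330.BI.F

/-!
# Row 330, block BI: intertwining (interface; statements frozen)
-/

set_option autoImplicit false
set_option linter.unusedSectionVars false

noncomputable section

open MeasureTheory Filter Topology
open scoped InnerProductSpace ContDiff Matrix
open Crest.MathPhysics.MatrixQM (GammaNine)

namespace Crest.Agent.R330

variable {E Z L H F : Type}
  [NormedAddCommGroup E] [InnerProductSpace ℝ E] [FiniteDimensional ℝ E]
  [NormedAddCommGroup Z] [InnerProductSpace ℝ Z] [FiniteDimensional ℝ Z]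
  [NormedAddCommGroup L] [InnerProductSpace ℝ L] [FiniteDimensional ℝ L]
  [NormedAddCommGroup H] [InnerProductSpace ℝ H] [FiniteDimensional ℝ H]
  [NormedAddCommGroup F] [InnerProductSpace ℂ F] [FiniteDimensional ℂ F]
  [MeasurableSpace E] [BorelSpace E] [MeasurableSpace Z] [BorelSpace Z]
  [MeasurableSpace L] [BorelSpace L] [MeasurableSpace H] [BorelSpace H]
  {P : Type} [Fintype P] {𝔤 : Lie E} (D : Levi 𝔤 Z L H P) (C : Cl (Th E) F) (σ : Spn)

namespace Levi

/-- Intertwining: the projected light supercharge of the effective wave function is controlled by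
the full supercharge, with `o(1/ρ)` errors. -/
theorem intertwine {κ η : ℝ} (hκ : 1 ≤ κ) (hη : 0 < η) (B₁ : ℝ → ℝ → ℝ) {B : ℝ} (hB : 0 < B) :
    ∃ θ₀ δ : ℝ, 0 < θ₀ ∧ 0 < δ ∧ ∀ θ, 0 < θ → θ ≤ θ₀ → ∃ R₀ : ℝ, ∀ R, R₀ ≤ R →
      ∀ ε, 0 ≤ ε → ε ≤ 1 → ∀ u, D.Loc C σ.G ∅ κ θ R u → D.E1 C σ ε B₁ u →
        D.FineIneq C σ ε B u → D.DefIneq C σ ε δ u →
        ∫ q, ‖D.Qlight C σ ε (D.red C σ.G u) q‖ ^ 2 ≤
          (1 + η) * D.PI (fun x => ‖Qe 𝔤 C σ ε u x‖ ^ 2) +
            η * D.PI fun x => (1 / ‖x‖ ^ 2 + ε) * ‖u x‖ ^ 2 :=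
  D.intertwine' C σ hκ hη B₁ hB

end Levi

end Crest.Agent.R330

end
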