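import Crest.Agent.R330.IB0
import Crest.Agent.R330.IU
import Crest.Agent.R330.BU.D
import Crest.Agent.R330.BU.F

/-!
# Row 330, block BU: the Faddeev–Popov weight and the local energy inequalities (interface; statements frozen)
-/

set_option autoImplicit false
set_option linter.unusedSectionVars false

noncomputable section

open MeasureTheory Filter Topology
open scoped InnerProductSpace ContDiff Matrix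
open Crest.MathPhysics.MatrixQM (GammaNine)

namespace Crest.Agent.R330

variable {E Z L H F : Type}
  [NormedAddCommGroup E] [InnerProductSpace ℝ E] [FiniteDimensional ℝ E]
  [NormedAddCommGroup Z] [InnerProductSpace ℝ Z] [FiniteDimensional ℝ Z]
  [NormedAddCommGroup L] [InnerProductSpace ℝ L] [FiniteDimensional ℝ L]
  [NormedAddCommGroup H] [InnerProductSpace ℝ H] [FiniteDimensional ℝ H]
  [NormedAddCommGroup F] [InnerProductSpace ℂ F] [FiniteDimensional ℂ F]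
  [MeasurableSpace E] [BorelSpace E] [MeasurableSpace Z] [BorelSpace Z]
  [MeasurableSpace L] [BorelSpace L] [MeasurableSpace H] [BorelSpace H]
  {P : Type} [Fintype P] {𝔤 : Lie E} (D : Levi 𝔤 Z L H P) (C : Cl (Th E) F) (σ : Spn)

namespace Levi

variable {K : Type} [Group K] [TopologicalSpace K] [IsTopologicalGroup K]
  [CompactSpace K] [MeasurableSpace K] [BorelSpace K] (Γ : Grp 𝔤 K)

/-- Existence of the weight `p = g(Φ) j χ` together with the cone cut-off `χ`; gradient bound for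
its orbit average, also with an admissible extra factor. -/
theorem exists_fpw {κ η : ℝ} (hκ : 1 ≤ κ) (hη : 0 < η) : ∃ θ₀ : ℝ, 0 < θ₀ ∧ θ₀ ≤ 1 / 4 ∧
    ∀ θ, 0 < θ → θ ≤ θ₀ → ∃ χ : X E → ℝ, ContDiff ℝ ∞ χ ∧ (∀ x, 0 ≤ χ x) ∧ RotInv χ ∧
      (∀ x ∈ tsupport χ, x ∈ D.tube (2 * κ) (2 * θ) ∧ x ≠ 0) ∧
      (∀ x ∈ D.tube κ θ, 1 ≤ ‖x‖ → ∀ᶠ y in 𝓝 x, χ y = 1) ∧
      D.FPW κ θ (fun x => D.wtX x * χ x) ∧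
      ∀ Ω : Set (X E), IsOpen Ω → (∀ k, ∀ x ∈ Ω, Γ.ax k x ∈ Ω) → (∀ x ∈ Ω, 1 ≤ ‖x‖) →
        D.GapProp κ θ Ω →
        (∀ x ∈ Ω, ‖fderiv ℝ (Γ.avg fun x => D.wtX x * χ x) x‖ ≤
          η / ‖x‖ * Γ.avg (fun x => D.wtX x * χ x) x) ∧
        ∀ Ω₁, 0 ≤ Ω₁ → ∀ wl, Adm Ω₁ wl →
          ContDiff ℝ ∞ (fun x => D.wtX x * χ x * wl (D.zc x, D.lc x)) ∧
          ∀ x ∈ Ω, ‖fderiv ℝ (Γ.avg fun x => D.wtX x * χ x * wl (D.zc x, D.lc x)) x‖ ≤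
            (η + 8 * Ω₁) / ‖x‖ * Γ.avg (fun x => D.wtX x * χ x * wl (D.zc x, D.lc x)) x := by
  obtain ⟨θ₀, h0, h1, hb⟩ := D.grad_bound Γ hκ hη
  refine ⟨θ₀, h0, h1, fun θ hθ hθ' => ?_⟩
  obtain ⟨χ, c1, c2, c3, c4, c5⟩ := D.exists_chi hκ hθ
  refine ⟨χ, c1, c2, c3, c4, c5, D.fpw_of_chi c1 c2 c3 c4 c5, fun Ω _ hK hΩ hgap => ⟨fun x hx => ?_,
    fun Ω₁ hΩ₁ wl hw => ⟨(D.contDiff_pw (hθ'.trans h1) c1 c4 hw).1,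
      hb θ hθ hθ' χ c1 c2 c4 c5 Ω hK hΩ hgap Ω₁ hΩ₁ wl hw⟩⟩⟩
  simpa using hb θ hθ hθ' χ c1 c2 c4 c5 Ω hK hΩ hgap 0 le_rfl _ adm_one x hx

/-- Localisation: `u = χ ψ` is in the local class, satisfies (E1), (E2), and the `p`-integrals
of `ψ` are the `PI`-integrals of `u`. -/
theorem localise {κ : ℝ} (hκ : 1 ≤ κ) : ∃ (B₁ : ℝ → ℝ → ℝ) (B₂ θ₀ : ℝ), 0 < θ₀ ∧
    ∀ θ, 0 < θ → θ ≤ θ₀ → ∃ R₀ : ℝ, 1 ≤ R₀ ∧ ∀ R, R₀ ≤ R → ∀ χ : X E → ℝ, ContDiff ℝ ∞ χ →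
      (∀ x, 0 ≤ χ x) → (∀ x ∈ tsupport χ, x ∈ D.tube (2 * κ) (2 * θ) ∧ x ≠ 0) →
      (∀ x ∈ D.tube κ θ, 1 ≤ ‖x‖ → ∀ᶠ y in 𝓝 x, χ y = 1) →
      ∀ Ω : Set (X E), IsOpen Ω → (∀ x ∈ Ω, R ≤ ‖x‖) → D.GapProp κ θ Ω →
        (∀ Ω₁, 0 ≤ Ω₁ → ∀ wl, Adm Ω₁ wl →
          ContDiff ℝ ∞ (fun x => D.wtX x * χ x * wl (D.zc x, D.lc x)) ∧
          ∀ x ∈ Ω, ‖fderiv ℝ (Γ.avg fun x => D.wtX x * χ x * wl (D.zc x, D.lc x)) x‖ ≤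
            (1 + 8 * Ω₁) / ‖x‖ * Γ.avg (fun x => D.wtX x * χ x * wl (D.zc x, D.lc x)) x) →
        ∀ ε k : ℝ, 0 ≤ ε → ε ≤ 1 → ∀ (𝒱 : Wts) (ψ : X E → F), Cls 𝔤 C σ.G 𝒱 ψ →
          (ε = 0 ∨ (0 ≤ k ∧ (V0, k) ∈ 𝒱)) → tsupport ψ ⊆ Ω →
          D.Loc C σ.G 𝒱 κ θ R (fun x => (χ x : ℂ) • ψ x) ∧
          D.E1 C σ ε B₁ (fun x => (χ x : ℂ) • ψ x) ∧ D.E2 C σ ε B₂ (fun x => (χ x : ℂ) • ψ x) ∧
          (∀ x, D.wtX x * ‖(χ x : ℂ) • ψ x‖ ^ 2 = D.wtX x * χ x * ‖ψ x‖ ^ 2) ∧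
          ∀ x, D.wtX x * ‖Qe 𝔤 C σ ε (fun x => (χ x : ℂ) • ψ x) x‖ ^ 2 =
            D.wtX x * χ x * ‖Qe 𝔤 C σ ε ψ x‖ ^ 2 := by
  obtain ⟨B, θ₀, h0, hb⟩ := D.e2 C σ Γ hκ
  refine ⟨fun τ Ω₁ => (1 / (16 * τ) + 1 / 8) * (1 + 8 * Ω₁) ^ 2, B, min θ₀ (1 / 4),
    lt_min h0 (by norm_num), fun θ hθ hθ' => ?_⟩
  obtain ⟨R₀, hR⟩ := hb θ hθ (hθ'.trans (min_le_left _ _))
  refine ⟨max 1 R₀, le_max_left _ _,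
    fun R hR' χ c1 c2 c4 c5 Ω hΩ hfar hgap hg ε k e0 e1 𝒱 ψ hψ hk hs => ?_⟩
  have hc : D.Cut κ θ R χ Ω := ⟨c1, c2, c4, c5, hΩ, hfar, (le_max_left _ _).trans hR', hgap⟩
  have hl := dens_local C σ 𝔤 ε 0
  refine ⟨hc.loc C σ hψ hs, D.e1 C σ Γ hc hg (hθ'.trans (min_le_right _ _)) e0 hψ hk hs,
    hR R ((le_max_right _ _).trans hR') χ Ω hc (fun x hx => ?_) ε k e0 e1 𝒱 ψ hψ hk hs,
    hc.local hs (fun u x => ‖u x‖ ^ 2) (fun u v x h => (hl.1 u v x h).1) (fun x => by simp),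
    hc.local hs (fun u x => ‖Qe 𝔤 C σ ε u x‖ ^ 2) (fun u v x h => (hl.1 u v x h).2.1)
      (fun x => (hl.2 x).1)⟩
  simpa using (hg 0 le_rfl _ adm_one).2 x hx

end Levi

end Crest.Agent.R330

end
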