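import Crest.Agent.R330.Br.E

/-!
# Row 330, block Br: bridge to the frozen definitions (interface; statements frozen)
-/

set_option autoImplicit false
set_option linter.unusedSectionVars false

noncomputable section

open MeasureTheory Filter Topology
open scoped InnerProductSpace ContDiff Matrix
open Crest.MathPhysics.MatrixQM

namespace Crest.Agent.R330

/- `SU`, its instances and `EE` are declared in `R330/Br/A.lean`. -/

variable {N : ℕ} {F : Type} [NormedAddCommGroup F] [InnerProductSpace ℂ F] [FiniteDimensional ℂ F]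

/-- The dictionary between the frozen data and the internal model. -/
theorem bridge (hN : 2 ≤ N) [Nontrivial F] (b : ColorBasis N) (M : FermionRep N F)
    (R : GaugeAction b M) (G : GammaNine) :
    ∃ (𝔤 : Lie (EE N)) (_ : MatSys N 𝔤) (C : Cl (Th (EE N)) F) (σ : Spn) (Γ : Grp 𝔤 (SU N))
      (_ : Rep Γ C) (e : X (EE N) ≃ₗᵢ[ℝ] Cfg N), C.Irr ∧
      (∀ φ : Cfg N → F, IsCoreVec b R φ ↔ Cls 𝔤 C σ.G ∅ (φ ∘ e)) ∧
      ∀ (α : Fin 16) (φ : Cfg N → F) (x : X (EE N)),
        supercharge b M G α φ (e x) = Qu 𝔤 C σ.G (Pi.single α 1) (φ ∘ e) x := by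
  have hN1 : 1 ≤ N := by omega
  obtain ⟨σ, ε, hε, hσ⟩ := exists_spn G
  have hs : ∀ i : Fin 9, (if i = 8 then ε else 1) * (if i = 8 then ε else 1) = 1 := by
    intro i
    split_ifs
    · rcases hε with rfl | rfl <;> norm_num
    · norm_num
  refine ⟨Br.lieT b hN1, Br.matT b hN1, Br.clT M, σ, Br.grpT b hN1, Br.repT R hN1,
    Br.eT N (fun i => if i = 8 then ε else 1) hs, Br.clT_irr M,
    fun φ => Br.core_iff R hN1 hs σ.G φ, fun α φ x => ?_⟩
  refine Br.supercharge_eq b M hN1 hs G σ.G (fun i => ?_) α φ x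
  rw [hσ]
  split_ifs <;> simp

end Crest.Agent.R330

end
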