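import Crest.Agent.R330.IL1
import Crest.Agent.R330.IU
import Crest.Agent.R330.IFA
import Crest.Agent.R330.L.Main

/-!
# Row 330, block L: the semiclassical (large `ε`) analysis (interface; statements frozen)
-/

set_option autoImplicit false
set_option linter.unusedSectionVars false

noncomputable section

open MeasureTheory Filter Topology
open scoped InnerProductSpace ContDiff Matrix
open Crest.MathPhysics.MatrixQM (GammaNine)

namespace Crest.Agent.R330

variable {E F : Type} [NormedAddCommGroup E] [InnerProductSpace ℝ E] [FiniteDimensional ℝ E]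
  [MeasurableSpace E] [BorelSpace E]
  [NormedAddCommGroup F] [InnerProductSpace ℂ F] [FiniteDimensional ℂ F]
  {𝔤 : Lie E} (C : Cl (Th E) F) (σ : Spn)

variable {K : Type} [Group K] [TopologicalSpace K] [IsTopologicalGroup K]
  [CompactSpace K] [MeasurableSpace K] [BorelSpace K]

/-- For large `Λ` and a suitable compactly supported invariant `F` the neutral kernel is a line. -/
theorem large_lambda [Nontrivial F] {N : ℕ} (hN : 2 ≤ N) (M : MatSys N 𝔤) (Γ : Grp 𝔤 K)
    (ρ : Rep Γ C) (hirr : C.Irr) : ∃ Λ : ℝ, 0 < Λ ∧ ∃ Fn : E → ℝ, ContDiff ℝ ∞ Fn ∧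
      HasCompactSupport Fn ∧ (∀ ξ v, Fn (rexp' (𝔤.br ξ) v) = Fn v) ∧
      NonTriv (WK (flows 𝔤 C σ.G neut) (Qd 𝔤 C σ Λ (gradient Fn))) ∧
      AtMostOne (WK (flows 𝔤 C σ.G neut) (Qd 𝔤 C σ Λ (gradient Fn))) :=
  large_lambda' C σ hN M Γ ρ hirr

end Crest.Agent.R330

end
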